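import Vale.Agent.P235A.Apex
import Vale.Agent.P235A.Ker
import Vale.Agent.P235A.Real
import Vale.Agent.P235A.Del
import Vale.Agent.P235A.Metric
import Vale.Agent.P235A.Scale
import Vale.Agent.P235A.Cone
import Vale.Agent.P235A.Cut
import Vale.Agent.P235A.Sum
import Vale.Agent.P235A.Tree
import Vale.Agent.P235A.Disj

namespace Vale.Agent.Results.P235.ApexClosure

open MeasureTheory

universe u

/-- The length of a walk for the edge lengths `ℓ`. -/
noncomputable def walkLength {V : Type u} {G : SimpleGraph V} (ℓ : Sym2 V → ℝ) {x y : V}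
    (w : G.Walk x y) : ℝ := (w.edges.map ℓ).sum

/-- The shortest-path distance `d_{G,ℓ}` (only used for pairs joined by a walk). -/
noncomputable def pathDist {V : Type u} (G : SimpleGraph V) (ℓ : Sym2 V → ℝ) (x y : V) : ℝ :=
  ⨅ w : G.Walk x y, walkLength ℓ w

/-- `(G, ℓ)` embeds into some `L_1(μ)` with distortion at most `C`. If `G` is connected this is
the usual notion for the metric space `(V, d_{G,ℓ})`; if not, it is asked on each component. -/
def EmbedsL1 {V : Type u} (G : SimpleGraph V) (ℓ : Sym2 V → ℝ) (C : ℝ) : Prop :=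
  ∃ (Ω : Type) (_ : MeasurableSpace Ω) (μ : Measure Ω) (f : V → Lp ℝ 1 μ), ∀ x y,
    G.Reachable x y → pathDist G ℓ x y ≤ ‖f x - f y‖ ∧ ‖f x - f y‖ ≤ C * pathDist G ℓ x y

/-- `c_1(G) ≤ C`: for all positive edge lengths `(G, ℓ)` embeds into `L_1` with distortion at
most `C`. -/
def C1AtMost {V : Type u} (G : SimpleGraph V) (C : ℝ) : Prop :=
  ∀ ℓ : Sym2 V → ℝ, (∀ e ∈ G.edgeSet, 0 < ℓ e) → EmbedsL1 G ℓ C

/-- `Built k V G`: the graph `G` on `V` is obtained from forests by two operations, in any order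
and any number of times subject to the rule on `k`: gluing two graphs along at most one vertex
(this includes disjoint unions; it does not change `k`), and adding one vertex joined to the old
ones in an arbitrary way (this raises `k` by one). -/
inductive Built : ℕ → (V : Type u) → SimpleGraph V → Prop
  | forest {k : ℕ} {V : Type u} {G : SimpleGraph V} : G.IsAcyclic → Built k V G
  | glue {k : ℕ} {V : Type u} {G : SimpleGraph V} (V1 V2 : Set V) :
      V1 ∪ V2 = Set.univ → (V1 ∩ V2).Subsingleton →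
      (∀ u v, G.Adj u v → (u ∈ V1 ∧ v ∈ V1) ∨ (u ∈ V2 ∧ v ∈ V2)) →
      Built k V1 (G.induce V1) → Built k V2 (G.induce V2) → Built k V G
  | vertex {k : ℕ} {V : Type u} {G : SimpleGraph V} (a : V) :
      Built k {x : V | x ≠ a} (G.induce {x : V | x ≠ a}) → Built (k + 1) V G

theorem apexClosure (V : Type u) [Fintype V] (G : SimpleGraph V) (A : Finset V) (c : ℝ)
    (hc : 1 ≤ c) (h : C1AtMost (G.induce {x | x ∉ A}) c) : C1AtMost G (480 * c + A.card) :=
  Vale.Agent.P235A.apex Vale.Agent.P235A.cut.{u} Vale.Agent.P235A.real.{u}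
    (Vale.Agent.P235A.cone (Vale.Agent.P235A.bump' Vale.Agent.P235A.ker.{u})
      Vale.Agent.P235A.scale)
    Vale.Agent.P235A.metric.{u} (Vale.Agent.P235A.del Vale.Agent.P235A.metric.{u}) V G A c hc h

theorem forestCase (V : Type u) [Fintype V] (G : SimpleGraph V) (h : G.IsAcyclic) :
    C1AtMost G 1 :=
  Vale.Agent.P235A.tree Vale.Agent.P235A.real.{u} Vale.Agent.P235A.metric.{u} V G h

theorem oneSum (V : Type u) [Fintype V] (G : SimpleGraph V) (V1 V2 : Set V) (x : V) (c : ℝ)
    (hc : 1 ≤ c) (hun : V1 ∪ V2 = Set.univ) (hint : V1 ∩ V2 = {x})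
    (hadj : ∀ u v, G.Adj u v → (u ∈ V1 ∧ v ∈ V1) ∨ (u ∈ V2 ∧ v ∈ V2))
    (h1 : C1AtMost (G.induce V1) c) (h2 : C1AtMost (G.induce V2) c) : C1AtMost G c :=
  Vale.Agent.P235A.sum1 Vale.Agent.P235A.cut.{u} Vale.Agent.P235A.real.{u}
    Vale.Agent.P235A.metric.{u} (Vale.Agent.P235A.del Vale.Agent.P235A.metric.{u})
    V G V1 V2 x c hc hun hint hadj h1 h2

theorem disjointUnion (V : Type u) [Fintype V] (G : SimpleGraph V) (V1 V2 : Set V) (c : ℝ)
    (hun : V1 ∪ V2 = Set.univ) (hint : V1 ∩ V2 = ∅)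
    (hadj : ∀ u v, G.Adj u v → (u ∈ V1 ∧ v ∈ V1) ∨ (u ∈ V2 ∧ v ∈ V2))
    (h1 : C1AtMost (G.induce V1) c) (h2 : C1AtMost (G.induce V2) c) : C1AtMost G c :=
  Vale.Agent.P235A.disj Vale.Agent.P235A.cut.{u} Vale.Agent.P235A.real.{u}
    Vale.Agent.P235A.metric.{u} (Vale.Agent.P235A.del Vale.Agent.P235A.metric.{u})
    V G V1 V2 c hun hint hadj h1 h2

theorem mono {V : Type u} {G : SimpleGraph V} {c c' : ℝ} (h : C1AtMost G c) (hcc : c ≤ c') :
    C1AtMost G c' := by
  intro ℓ hℓ
  obtain ⟨Ω, m, μ, f, hf⟩ := h ℓ hℓ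
  refine ⟨Ω, m, μ, f, fun x y hxy => ⟨(hf x y hxy).1, (hf x y hxy).2.trans ?_⟩⟩
  exact mul_le_mul_of_nonneg_right hcc ((Vale.Agent.P235A.metric.{u} V G ℓ hℓ).2.1 x y)

theorem builtCase (k : ℕ) (V : Type u) (G : SimpleGraph V) (h : Built k V G) :
    Finite V → C1AtMost G (481 ^ k) := by
  classical
  induction h with
  | @forest k V G hG =>
    intro hfin
    have := Fintype.ofFinite V
    exact mono (forestCase V G hG) (one_le_pow₀ (by norm_num))
  | @glue k V G V1 V2 hun hint hadj _ _ ih1 ih2 =>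
    intro hfin
    have := Fintype.ofFinite V
    have h1 := ih1 inferInstance
    have h2 := ih2 inferInstance
    rcases hint.eq_empty_or_singleton with he | ⟨x, hx⟩
    · exact disjointUnion V G V1 V2 _ hun he hadj h1 h2
    · exact oneSum V G V1 V2 x _ (one_le_pow₀ (by norm_num)) hun hx hadj h1 h2
  | @vertex k V G a _ ih =>
    intro hfin
    have := Fintype.ofFinite V
    have h1 := ih inferInstance
    have hset : {x : V | x ∉ ({a} : Finset V)} = {x : V | x ≠ a} := by
      ext x; simp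
    have h2 := apexClosure V G {a} (481 ^ k) (one_le_pow₀ (by norm_num)) (by rw [hset]; exact h1)
    refine mono h2 ?_
    have h3 : (1 : ℝ) ≤ 481 ^ k := one_le_pow₀ (by norm_num)
    rw [Finset.card_singleton, pow_succ]
    push_cast
    linarith

/-- (1) Apex closure: deleting a finite vertex set `A` controls `c_1`:
`c_1(G) ≤ 480 c_1(G - A) + |A|`. (2) In particular `c_1(G) ≤ 480 + |A|` if `G - A` is a forest.
(3) `c_1(G) ≤ 481^k` for every graph built from forests by gluings along at most one vertex and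
by `k` rounds of adding a vertex. -/
theorem result :
    (∀ (V : Type u) [Fintype V] (G : SimpleGraph V) (A : Finset V) (c : ℝ), 1 ≤ c →
      C1AtMost (G.induce {x | x ∉ A}) c → C1AtMost G (480 * c + A.card)) ∧
    (∀ (V : Type u) [Fintype V] (G : SimpleGraph V) (A : Finset V),
      (G.induce {x | x ∉ A}).IsAcyclic → C1AtMost G (480 + A.card)) ∧
    (∀ (k : ℕ) (V : Type u) [Fintype V] (G : SimpleGraph V),
      Built k V G → C1AtMost G (481 ^ k)) := by
  classical
  refine ⟨fun V _ G A c hc h => apexClosure V G A c hc h, fun V _ G A h => ?_,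
    fun k V _ G h => builtCase k V G h inferInstance⟩
  have h1 := apexClosure V G A 1 le_rfl (forestCase _ _ h)
  rw [mul_one] at h1
  exact h1

end Vale.Agent.Results.P235.ApexClosure
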