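import Vale.Agent.P235A.Close
import Vale.Agent.P235A.Geo
import Vale.Agent.P235A.Minw
import Vale.Agent.P235A.Ker
import Vale.Agent.P235A.Real
import Vale.Agent.P235A.Del
import Vale.Agent.P235A.Metric
import Vale.Agent.P235A.Scale
import Vale.Agent.P235A.Cone
import Vale.Agent.P235A.Cut
import Vale.Agent.P235A.Sum
import Vale.Agent.P235A.Tree
import Vale.Agent.P235A.Disj

namespace Vale.Agent.Results.P235.PathClosure

open MeasureTheory

universe u

/-- The length of a walk for the edge lengths `ℓ`. -/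
noncomputable def walkLength {V : Type u} {G : SimpleGraph V} (ℓ : Sym2 V → ℝ) {x y : V}
    (w : G.Walk x y) : ℝ := (w.edges.map ℓ).sum

/-- The shortest-path distance `d_{G,ℓ}` (only used for pairs joined by a walk). -/
noncomputable def pathDist {V : Type u} (G : SimpleGraph V) (ℓ : Sym2 V → ℝ) (x y : V) : ℝ :=
  ⨅ w : G.Walk x y, walkLength ℓ w

/-- `(G, ℓ)` embeds into some `L_1(μ)` with distortion at most `C`. If `G` is connected this is
the usual notion for the metric space `(V, d_{G,ℓ})`; if not, it is asked on each component. -/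
def EmbedsL1 {V : Type u} (G : SimpleGraph V) (ℓ : Sym2 V → ℝ) (C : ℝ) : Prop :=
  ∃ (Ω : Type) (_ : MeasurableSpace Ω) (μ : Measure Ω) (f : V → Lp ℝ 1 μ), ∀ x y,
    G.Reachable x y → pathDist G ℓ x y ≤ ‖f x - f y‖ ∧ ‖f x - f y‖ ≤ C * pathDist G ℓ x y

/-- `c_1(G) ≤ C`: for all positive edge lengths `(G, ℓ)` embeds into `L_1` with distortion at
most `C`. -/
def C1AtMost {V : Type u} (G : SimpleGraph V) (C : ℝ) : Prop :=
  ∀ ℓ : Sym2 V → ℝ, (∀ e ∈ G.edgeSet, 0 < ℓ e) → EmbedsL1 G ℓ C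

/-- Restriction of edge lengths to the graph induced on `s`. -/
def restrictLen {V : Type u} (s : Set V) (ℓ : Sym2 V → ℝ) : Sym2 s → ℝ :=
  fun e => ℓ (e.map Subtype.val)

/-- `BuiltFrom 𝓕 k V G`: the graph `G` on `V` is obtained from members of `𝓕` by two operations:
gluing two graphs along at most one vertex (this includes disjoint unions; `k` is unchanged), and
the path operation (`k` goes up by one): `G` has two vertices `x, y` in one component, possibly
`x = y`, such that for EVERY path of `G` from `x` to `y` the graph left after deleting the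
vertices of that path has level `k`. For `x = y` this is the addition of one vertex `x` joined to
the old ones in an arbitrary way. -/
inductive BuiltFrom (𝓕 : ∀ V : Type u, SimpleGraph V → Prop) :
    ℕ → (V : Type u) → SimpleGraph V → Prop
  | base {k : ℕ} {V : Type u} {G : SimpleGraph V} : 𝓕 V G → BuiltFrom 𝓕 k V G
  | glue {k : ℕ} {V : Type u} {G : SimpleGraph V} (V1 V2 : Set V) :
      V1 ∪ V2 = Set.univ → (V1 ∩ V2).Subsingleton →
      (∀ u v, G.Adj u v → (u ∈ V1 ∧ v ∈ V1) ∨ (u ∈ V2 ∧ v ∈ V2)) →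
      BuiltFrom 𝓕 k V1 (G.induce V1) → BuiltFrom 𝓕 k V2 (G.induce V2) → BuiltFrom 𝓕 k V G
  | path {k : ℕ} {V : Type u} {G : SimpleGraph V} (x y : V) : G.Reachable x y →
      (∀ w : G.Walk x y, w.IsPath →
        BuiltFrom 𝓕 k {z : V | z ∉ w.support} (G.induce {z : V | z ∉ w.support})) →
      BuiltFrom 𝓕 (k + 1) V G

theorem forestCase (V : Type u) [Fintype V] (G : SimpleGraph V) (h : G.IsAcyclic) :
    C1AtMost G 1 :=
  Vale.Agent.P235A.tree Vale.Agent.P235A.real.{u} Vale.Agent.P235A.metric.{u} V G h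

theorem oneSum (V : Type u) [Fintype V] (G : SimpleGraph V) (V1 V2 : Set V) (x : V) (c : ℝ)
    (hc : 1 ≤ c) (hun : V1 ∪ V2 = Set.univ) (hint : V1 ∩ V2 = {x})
    (hadj : ∀ u v, G.Adj u v → (u ∈ V1 ∧ v ∈ V1) ∨ (u ∈ V2 ∧ v ∈ V2))
    (h1 : C1AtMost (G.induce V1) c) (h2 : C1AtMost (G.induce V2) c) : C1AtMost G c :=
  Vale.Agent.P235A.sum1 Vale.Agent.P235A.cut.{u} Vale.Agent.P235A.real.{u}
    Vale.Agent.P235A.metric.{u} (Vale.Agent.P235A.del Vale.Agent.P235A.metric.{u})
    V G V1 V2 x c hc hun hint hadj h1 h2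

theorem disjointUnion (V : Type u) [Fintype V] (G : SimpleGraph V) (V1 V2 : Set V) (c : ℝ)
    (hun : V1 ∪ V2 = Set.univ) (hint : V1 ∩ V2 = ∅)
    (hadj : ∀ u v, G.Adj u v → (u ∈ V1 ∧ v ∈ V1) ∨ (u ∈ V2 ∧ v ∈ V2))
    (h1 : C1AtMost (G.induce V1) c) (h2 : C1AtMost (G.induce V2) c) : C1AtMost G c :=
  Vale.Agent.P235A.disj Vale.Agent.P235A.cut.{u} Vale.Agent.P235A.real.{u}
    Vale.Agent.P235A.metric.{u} (Vale.Agent.P235A.del Vale.Agent.P235A.metric.{u})
    V G V1 V2 c hun hint hadj h1 h2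

theorem closeCase : Vale.Agent.P235A.S_CLOSE.{u} :=
  Vale.Agent.P235A.close Vale.Agent.P235A.cut.{u} Vale.Agent.P235A.real.{u}
    (Vale.Agent.P235A.cone (Vale.Agent.P235A.bump' Vale.Agent.P235A.ker.{u})
      Vale.Agent.P235A.scale)
    Vale.Agent.P235A.metric.{u} (Vale.Agent.P235A.del Vale.Agent.P235A.metric.{u})

theorem shortestPath (V : Type u) [Fintype V] (G : SimpleGraph V) (ℓ : Sym2 V → ℝ) (c : ℝ)
    (hℓ : ∀ e ∈ G.edgeSet, 0 < ℓ e) (hc : 1 ≤ c) (x y : V) (w : G.Walk x y)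
    (hw : walkLength ℓ w = pathDist G ℓ x y)
    (h : EmbedsL1 (G.induce {z : V | z ∉ w.support}) (restrictLen {z : V | z ∉ w.support} ℓ) c) :
    EmbedsL1 G ℓ (484 * c) := by
  classical
  obtain ⟨hwl, hnn, hself, hsymm, htri, hinf⟩ := Vale.Agent.P235A.metric.{u} V G ℓ hℓ
  have hset : {z : V | z ∉ w.support.toFinset} = {z : V | z ∉ w.support} := by
    ext z; simp
  have hcl := closeCase V G ℓ w.support.toFinset c 1
    (fun u v => |Vale.Agent.P235A.wdist G ℓ x u - Vale.Agent.P235A.wdist G ℓ x v|) hℓ hc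
    (by norm_num) (Vale.Agent.P235A.IsL1.abs_sub (fun u => Vale.Agent.P235A.wdist G ℓ x u))
    (by
      intro u v huv
      rw [one_mul]
      by_cases hxu : G.Reachable x u
      · have hxv := hxu.trans huv
        have h1 := htri x u v hxu huv
        have h2 := htri x v u hxv huv.symm
        rw [hsymm v u] at h2
        rw [abs_le]
        constructor <;> linarith
      · have hxv : ¬ G.Reachable x v := fun h => hxu (h.trans huv.symm)
        have h1 : Vale.Agent.P235A.wdist G ℓ x u = 0 := by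
          have : IsEmpty (G.Walk x u) := ⟨fun w => hxu ⟨w⟩⟩
          unfold Vale.Agent.P235A.wdist
          exact Real.iInf_of_isEmpty _
        have h2 : Vale.Agent.P235A.wdist G ℓ x v = 0 := by
          have : IsEmpty (G.Walk x v) := ⟨fun w => hxv ⟨w⟩⟩
          unfold Vale.Agent.P235A.wdist
          exact Real.iInf_of_isEmpty _
        rw [h1, h2]
        simpa using hnn u v)
    (by
      intro a ha b hb _
      exact Vale.Agent.P235A.geo Vale.Agent.P235A.metric.{u} V G ℓ hℓ x y w hw a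
        (List.mem_toFinset.1 ha) b (List.mem_toFinset.1 hb))
    (by rw [hset]; exact h)
  have he : (242 * (1 + 1) * c : ℝ) = 484 * c := by ring
  rw [he] at hcl
  exact hcl

theorem builtCase (𝓕 : ∀ V : Type u, SimpleGraph V → Prop) (c : ℝ) (hc : 1 ≤ c)
    (h𝓕 : ∀ (V : Type u) [Fintype V] (G : SimpleGraph V), 𝓕 V G → C1AtMost G c)
    (k : ℕ) (V : Type u) (G : SimpleGraph V) (h : BuiltFrom 𝓕 k V G) :
    Finite V → C1AtMost G (484 ^ k * c) := by
  classical
  have hone : ∀ k : ℕ, (1 : ℝ) ≤ 484 ^ k * c := fun k => by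
    have h3 : (1 : ℝ) ≤ 484 ^ k := one_le_pow₀ (by norm_num)
    nlinarith
  induction h with
  | @base k V G hG =>
    intro hfin
    have := Fintype.ofFinite V
    intro ℓ hℓ
    obtain ⟨Ω, m, μ, f, hf⟩ := h𝓕 V G hG ℓ hℓ
    refine ⟨Ω, m, μ, f, fun x y hxy => ⟨(hf x y hxy).1, (hf x y hxy).2.trans ?_⟩⟩
    have h3 : (1 : ℝ) ≤ 484 ^ k := one_le_pow₀ (by norm_num)
    exact mul_le_mul_of_nonneg_right (by nlinarith)
      ((Vale.Agent.P235A.metric.{u} V G ℓ hℓ).2.1 x y)
  | @glue k V G V1 V2 hun hint hadj _ _ ih1 ih2 =>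
    intro hfin
    have := Fintype.ofFinite V
    have h1 := ih1 inferInstance
    have h2 := ih2 inferInstance
    rcases hint.eq_empty_or_singleton with he | ⟨x, hx⟩
    · exact disjointUnion V G V1 V2 _ hun he hadj h1 h2
    · exact oneSum V G V1 V2 x _ (hone k) hun hx hadj h1 h2
  | @path k V G x y hxy _ ih =>
    intro hfin
    have := Fintype.ofFinite V
    intro ℓ hℓ
    obtain ⟨w, hwp, hwl⟩ := Vale.Agent.P235A.minw Vale.Agent.P235A.metric.{u} V G ℓ hℓ x y hxy
    have h1 := ih w hwp inferInstance (restrictLen {z : V | z ∉ w.support} ℓ)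
      (Vale.Agent.P235A.resLen_pos G _ ℓ hℓ)
    have h2 := shortestPath V G ℓ (484 ^ k * c) hℓ (hone k) x y w hwl h1
    have he : (484 * (484 ^ k * c) : ℝ) = 484 ^ (k + 1) * c := by rw [pow_succ]; ring
    rw [he] at h2
    exact h2

/-- (1) Deleting a shortest path of a weighted graph changes the `L_1` distortion by at most the
factor `484`. (2) If `c_1 ≤ c` on the finite members of a family `𝓕` of graphs, then
`c_1 ≤ 484^k c` for all finite graphs built from `𝓕` with at most `k` path operations and any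
number of gluings along one vertex. (3) In particular `c_1 ≤ 484^k` for the graphs built from
forests. -/
theorem result :
    (∀ (V : Type u) [Fintype V] (G : SimpleGraph V) (ℓ : Sym2 V → ℝ) (c : ℝ),
      (∀ e ∈ G.edgeSet, 0 < ℓ e) → 1 ≤ c → ∀ (x y : V) (w : G.Walk x y),
      walkLength ℓ w = pathDist G ℓ x y →
      EmbedsL1 (G.induce {z : V | z ∉ w.support}) (restrictLen {z : V | z ∉ w.support} ℓ) c →
      EmbedsL1 G ℓ (484 * c)) ∧
    (∀ (𝓕 : ∀ V : Type u, SimpleGraph V → Prop) (c : ℝ), 1 ≤ c →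
      (∀ (V : Type u) [Fintype V] (G : SimpleGraph V), 𝓕 V G → C1AtMost G c) →
      ∀ (k : ℕ) (V : Type u) [Fintype V] (G : SimpleGraph V),
        BuiltFrom 𝓕 k V G → C1AtMost G (484 ^ k * c)) ∧
    (∀ (k : ℕ) (V : Type u) [Fintype V] (G : SimpleGraph V),
      BuiltFrom (fun _ G => G.IsAcyclic) k V G → C1AtMost G (484 ^ k)) := by
  classical
  refine ⟨fun V _ G ℓ c hℓ hc x y w hw h => shortestPath V G ℓ c hℓ hc x y w hw h,
    fun 𝓕 c hc h𝓕 k V _ G h => builtCase 𝓕 c hc h𝓕 k V G h inferInstance, fun k V _ G h => ?_⟩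
  have h1 := builtCase (fun _ G => G.IsAcyclic) 1 le_rfl (fun V _ G h => forestCase V G h)
    k V G h inferInstance
  rw [mul_one] at h1
  exact h1

end Vale.Agent.Results.P235.PathClosure
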