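import Vale.Agent.P235A.Star2
import Vale.Agent.P235A.Minw
import Vale.Agent.P235A.Ker
import Vale.Agent.P235A.Real
import Vale.Agent.P235A.Del
import Vale.Agent.P235A.Metric
import Vale.Agent.P235A.Scale
import Vale.Agent.P235A.Cone
import Vale.Agent.P235A.Cut

namespace Vale.Agent.Results.P235.SmallAttachments

open MeasureTheory

universe u

/-- The length of a walk for the edge lengths `ℓ`. -/
noncomputable def walkLength {V : Type u} {G : SimpleGraph V} (ℓ : Sym2 V → ℝ) {x y : V}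
    (w : G.Walk x y) : ℝ := (w.edges.map ℓ).sum

/-- The shortest-path distance `d_{G,ℓ}` (only used for pairs joined by a walk). -/
noncomputable def pathDist {V : Type u} (G : SimpleGraph V) (ℓ : Sym2 V → ℝ) (x y : V) : ℝ :=
  ⨅ w : G.Walk x y, walkLength ℓ w

/-- `(G, ℓ)` embeds into some `L_1(μ)` with distortion at most `C`. If `G` is connected this is
the usual notion for the metric space `(V, d_{G,ℓ})`; if not, it is asked on each component. -/
def EmbedsL1 {V : Type u} (G : SimpleGraph V) (ℓ : Sym2 V → ℝ) (C : ℝ) : Prop :=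
  ∃ (Ω : Type) (_ : MeasurableSpace Ω) (μ : Measure Ω) (f : V → Lp ℝ 1 μ), ∀ x y,
    G.Reachable x y → pathDist G ℓ x y ≤ ‖f x - f y‖ ∧ ‖f x - f y‖ ≤ C * pathDist G ℓ x y

/-- The vertex set `V0` with the distance `d_{G,ℓ}` of the whole graph embeds into some `L_1(μ)`
with distortion at most `C`. -/
def SubsetEmbedsL1 {V : Type u} (G : SimpleGraph V) (ℓ : Sym2 V → ℝ) (V0 : Finset V) (C : ℝ) :
    Prop :=
  ∃ (Ω : Type) (_ : MeasurableSpace Ω) (μ : Measure Ω) (f : V0 → Lp ℝ 1 μ), ∀ x y : V0,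
    G.Reachable (x : V) y →
      pathDist G ℓ x y ≤ ‖f x - f y‖ ∧ ‖f x - f y‖ ≤ C * pathDist G ℓ x y

/-- Restriction of edge lengths to the graph induced on `s`. -/
def restrictLen {V : Type u} (s : Set V) (ℓ : Sym2 V → ℝ) : Sym2 s → ℝ :=
  fun e => ℓ (e.map Subtype.val)

/-- The set of vertices of `V0` that have a neighbour in the component `K` of `G - V0`. -/
def attachments {V : Type u} (G : SimpleGraph V) (V0 : Finset V)
    (K : (G.induce {x | x ∉ V0}).ConnectedComponent) : Set V :=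
  {v | v ∈ V0 ∧ ∃ z : {x : V | x ∉ V0},
    (G.induce {x | x ∉ V0}).connectedComponentMk z = K ∧ G.Adj z v}

/-- Let `V0` be a set of vertices of the finite weighted graph `(G, ℓ)` such that each component
of `G - V0` is attached to at most `k` vertices of `V0`. If `(V0, d_{G,ℓ})` embeds in `L_1` with
distortion `c0` and `(G - V0, ℓ)` with distortion `c`, then `(G, ℓ)` embeds in `L_1` with
distortion at most `242 (1 + 2^k c0) c`. -/
theorem result (V : Type u) [Fintype V] (G : SimpleGraph V) (ℓ : Sym2 V → ℝ)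
    (hℓ : ∀ e ∈ G.edgeSet, 0 < ℓ e) (V0 : Finset V) (k : ℕ) (c0 c : ℝ) (hc0 : 1 ≤ c0)
    (hc : 1 ≤ c)
    (hatt : ∀ K : (G.induce {x | x ∉ V0}).ConnectedComponent, (attachments G V0 K).ncard ≤ k)
    (h0 : SubsetEmbedsL1 G ℓ V0 c0)
    (h1 : EmbedsL1 (G.induce {x | x ∉ V0}) (restrictLen {x | x ∉ V0} ℓ) c) :
    EmbedsL1 G ℓ (242 * (1 + 2 ^ k * c0) * c) := by
  classical
  have hclose := Vale.Agent.P235A.close Vale.Agent.P235A.cut.{u} Vale.Agent.P235A.real.{u}
    (Vale.Agent.P235A.cone (Vale.Agent.P235A.bump' Vale.Agent.P235A.ker.{u})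
      Vale.Agent.P235A.scale)
    Vale.Agent.P235A.metric.{u} (Vale.Agent.P235A.del Vale.Agent.P235A.metric.{u})
  refine Vale.Agent.P235A.star Vale.Agent.P235A.cut.{u} Vale.Agent.P235A.metric.{u}
    (Vale.Agent.P235A.minw Vale.Agent.P235A.metric.{u}) hclose V G ℓ V0 k c0 c hℓ hc0 hc
    ?_ h0 h1
  intro K
  refine le_trans (le_of_eq ?_) (hatt K)
  rw [← Set.ncard_coe_finset]
  congr 1
  ext v
  simp [Vale.Agent.P235A.attach, attachments]

end Vale.Agent.Results.P235.SmallAttachments
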